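import Mathlib
import Vale.Agent.Lib.P075.Defs
import Vale.Agent.Lib.P075.Main

/-!
P075, question Q2 (dyadic triangular Hilbert form): every constant `C` for which the
bound `|Λ| ≤ C ‖F0‖₃ ‖F1‖₃ ‖F2‖₃` holds for all finite sets of scales, all coefficients
bounded by one and all admissible functions satisfies `C ≥ 3`.
-/

namespace Vale.Agent.Results.P075.ConstGeThree

open Vale.Agent.Lib.P075

theorem result : ∀ C : ℝ,
    (∀ (S : Finset ℤ) (ε : ℤ → ℝ) (F0 F1 F2 : ℝ → ℝ → ℝ), (∀ k, |ε k| ≤ 1) →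
      Admissible F0 → Admissible F1 → Admissible F2 →
      |dyadicForm S ε F0 F1 F2| ≤ C * (norm3 F0 * norm3 F1 * norm3 F2)) →
    3 ≤ C :=
  fun C h => const_ge_three C h

end Vale.Agent.Results.P075.ConstGeThree
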