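import Mathlib
import Vale.Agent.Lib.P075.Defs
import Vale.Agent.Lib.P075.Main
import Vale.Agent.Lib.P075.NormP
import Vale.Agent.Lib.P075.HolderLine

/-!
P075, question Q2 (dyadic triangular Hilbert form), lower bounds for the constant on the
whole Hoelder line `1/p0 + 1/p1 + 1/p2 = 1`:
(1) a constant `C` for which the bound with the norms `L^p0`, `L^p1`, `L^p2` holds for one
finite set `S` of scales containing `1, ..., 2n` (all coefficients bounded by one, all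
admissible functions) satisfies `C ≥ 3 (1 - 2^(-n))`;
(2) a constant valid for all finite sets of scales satisfies `C ≥ 3`.
-/

namespace Vale.Agent.Results.P075.HolderLine

open Vale.Agent.Lib.P075

theorem result : ∀ (p0 p1 p2 : ℝ), 0 < p0 → 0 < p1 → 0 < p2 →
    1 / p0 + 1 / p1 + 1 / p2 = 1 →
    (∀ (n : ℕ) (S : Finset ℤ), Finset.Icc (1 : ℤ) (2 * (n : ℤ)) ⊆ S → ∀ C : ℝ,
      (∀ (ε : ℤ → ℝ) (F0 F1 F2 : ℝ → ℝ → ℝ), (∀ k, |ε k| ≤ 1) →
        Admissible F0 → Admissible F1 → Admissible F2 →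
        |dyadicForm S ε F0 F1 F2| ≤ C * (normP p0 F0 * normP p1 F1 * normP p2 F2)) →
      3 * (1 - ((1 : ℝ) / 2) ^ n) ≤ C) ∧
    (∀ C : ℝ,
      (∀ (S : Finset ℤ) (ε : ℤ → ℝ) (F0 F1 F2 : ℝ → ℝ → ℝ), (∀ k, |ε k| ≤ 1) →
        Admissible F0 → Admissible F1 → Admissible F2 →
        |dyadicForm S ε F0 F1 F2| ≤ C * (normP p0 F0 * normP p1 F1 * normP p2 F2)) →
      3 ≤ C) :=
  fun p0 p1 p2 h0 h1 h2 hsum =>
    ⟨fun n S hS C h => holder_scales_bound p0 p1 p2 h0 h1 h2 hsum n S hS C h,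
     fun C h => holder_const_ge_three p0 p1 p2 h0 h1 h2 hsum C h⟩

end Vale.Agent.Results.P075.HolderLine
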