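import Mathlib
import Vale.Agent.Lib.P075.Defs
import Vale.Agent.Lib.P075.NormP
import Vale.Agent.Lib.P075.HolderLine
import Vale.Agent.Lib.P075.Dilate
import Vale.Agent.Lib.P075.ScaleSets

/-!
P075, question Q2 (dyadic triangular Hilbert form), lower bounds for the constant on the
whole Hoelder line `1/p0 + 1/p1 + 1/p2 = 1`, for every finite set `S` of scales.  Suppose the
bound with the norms `L^p0`, `L^p1`, `L^p2` and the constant `C` holds for `S` (all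
coefficients bounded by one, all admissible functions).  Then
(1) for every integer `a`, `C` is at least the sum over the scales `k > a` in `S` of
`2^(-⌊(k - a) / 2⌋)`;
(2) if `S` contains the `2n` consecutive scales `a+1, ..., a+2n`, then `C ≥ 3 (1 - 2^(-n))`;
(3) if `S` contains the `2n+1` consecutive scales `a+1, ..., a+2n+1`, then
`C ≥ 3 - 2 * 2^(-n)`;
(4) a constant valid for all finite sets of scales satisfies `C ≥ 3`.
-/

namespace Vale.Agent.Results.P075.ScaleSets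

open Vale.Agent.Lib.P075

theorem result : ∀ (p0 p1 p2 : ℝ), 0 < p0 → 0 < p1 → 0 < p2 →
    1 / p0 + 1 / p1 + 1 / p2 = 1 →
    (∀ (a : ℤ) (S : Finset ℤ) (C : ℝ),
      (∀ (ε : ℤ → ℝ) (F0 F1 F2 : ℝ → ℝ → ℝ), (∀ k, |ε k| ≤ 1) →
        Admissible F0 → Admissible F1 → Admissible F2 →
        |dyadicForm S ε F0 F1 F2| ≤ C * (normP p0 F0 * normP p1 F1 * normP p2 F2)) →
      ∑ k ∈ S.filter (fun k => a < k), ((1 : ℝ) / 2) ^ ((k - a).toNat / 2) ≤ C) ∧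
    (∀ (a : ℤ) (n : ℕ) (S : Finset ℤ), Finset.Icc (a + 1) (a + 2 * (n : ℤ)) ⊆ S → ∀ C : ℝ,
      (∀ (ε : ℤ → ℝ) (F0 F1 F2 : ℝ → ℝ → ℝ), (∀ k, |ε k| ≤ 1) →
        Admissible F0 → Admissible F1 → Admissible F2 →
        |dyadicForm S ε F0 F1 F2| ≤ C * (normP p0 F0 * normP p1 F1 * normP p2 F2)) →
      3 * (1 - ((1 : ℝ) / 2) ^ n) ≤ C) ∧
    (∀ (a : ℤ) (n : ℕ) (S : Finset ℤ), Finset.Icc (a + 1) (a + 2 * (n : ℤ) + 1) ⊆ S →
      ∀ C : ℝ,
      (∀ (ε : ℤ → ℝ) (F0 F1 F2 : ℝ → ℝ → ℝ), (∀ k, |ε k| ≤ 1) →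
        Admissible F0 → Admissible F1 → Admissible F2 →
        |dyadicForm S ε F0 F1 F2| ≤ C * (normP p0 F0 * normP p1 F1 * normP p2 F2)) →
      3 - 2 * ((1 : ℝ) / 2) ^ n ≤ C) ∧
    (∀ C : ℝ,
      (∀ (S : Finset ℤ) (ε : ℤ → ℝ) (F0 F1 F2 : ℝ → ℝ → ℝ), (∀ k, |ε k| ≤ 1) →
        Admissible F0 → Admissible F1 → Admissible F2 →
        |dyadicForm S ε F0 F1 F2| ≤ C * (normP p0 F0 * normP p1 F1 * normP p2 F2)) →
      3 ≤ C) :=
  fun p0 p1 p2 h0 h1 h2 hsum =>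
    ⟨fun a S C h => general_scales_bound p0 p1 p2 h0 h1 h2 hsum a S C h,
     fun a n S hS C h => shift_scales_bound p0 p1 p2 h0 h1 h2 hsum a n S hS C h,
     fun a n S hS C h => odd_scales_bound p0 p1 p2 h0 h1 h2 hsum a n S hS C h,
     fun C h => holder_const_ge_three p0 p1 p2 h0 h1 h2 hsum C h⟩

end Vale.Agent.Results.P075.ScaleSets
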