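import Mathlib
import Vale.Agent.Lib.P075.Defs
import Vale.Agent.Lib.P075.Main

/-!
P075, question Q2 (dyadic triangular Hilbert form), quantitative version in the number of
scales: for every `n`, a constant `C` for which the bound holds for the `2n` consecutive
scales `1, ..., 2n` (all coefficients bounded by one, all admissible functions) satisfies
`C ≥ 3 (1 - 2^(-n))`.
-/

namespace Vale.Agent.Results.P075.ScalesBound

open Vale.Agent.Lib.P075

theorem result : ∀ (n : ℕ) (C : ℝ),
    (∀ (ε : ℤ → ℝ) (F0 F1 F2 : ℝ → ℝ → ℝ), (∀ k, |ε k| ≤ 1) →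
      Admissible F0 → Admissible F1 → Admissible F2 →
      |dyadicForm (Finset.Icc (1 : ℤ) (2 * (n : ℤ))) ε F0 F1 F2|
        ≤ C * (norm3 F0 * norm3 F1 * norm3 F2)) →
    3 * (1 - ((1 : ℝ) / 2) ^ n) ≤ C :=
  fun n C h => scales_bound n C h

end Vale.Agent.Results.P075.ScalesBound
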